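import Vale.Agent.P143_h11.Cayley

open MeasureTheory Filter Topology ProbabilityTheory
open scoped ENNReal unitInterval

namespace Vale.Agent.Results.P143.FusfFactorOfIid

open Vale.Agent.P143

/-- The free uniform spanning forest is a graph factor of i.i.d. labels on the random rooted
graph with law `P`: there is a measurable map `Φ` taking a graph `G` on the vertex set `V` and
labels `U v ∈ [0,1]` of the vertices to a set of edges, which commutes with all relabellings of
the vertices (so that `e ∈ Φ G U` depends only on the isomorphism class of the labelled graph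
with the distinguished edge `e`), such that for almost every graph `G`, the set `Φ G U` with
i.i.d. uniform labels `U` has the law of the free uniform spanning forest of `G`. -/
def IsGraphFactorOfIID {V : Type*} [MeasurableSpace V] (P : Measure (SimpleGraph V × V)) : Prop :=
  ∃ Φ : SimpleGraph V → (V → I) → Set (Sym2 V),
    (Measurable fun p : SimpleGraph V × (V → I) => Φ p.1 p.2) ∧
    (∀ (g : Equiv.Perm V) (G : SimpleGraph V) (U : V → I),
      Φ (G.map g.toEmbedding) (fun v => U (g.symm v)) = Sym2.map g '' Φ G U) ∧
    ∀ᵐ x ∂P, (∃ H : ℕ → x.1.Subgraph, IsExhaustion H) ∧ IsFUSF x.1 ((iidUniform V).map (Φ x.1))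

/-- The free uniform spanning forest of the Cayley graph of the group `Γ` with respect to `s` is
a `Γ`-factor of i.i.d. labels: it has the law of `Φ U` with `U` i.i.d. uniform and `Φ`
measurable with `Φ (γ U) = γ Φ(U)` for all `γ ∈ Γ` (acting by left multiplication). -/
def IsGroupFactorOfIID {Γ : Type*} [Group Γ] (s : Set Γ) : Prop :=
  ∃ Φ : (Γ → I) → Set (Sym2 Γ), Measurable Φ ∧
    (∀ (γ : Γ) (U : Γ → I), Φ (fun v => U (γ⁻¹ * v)) = Sym2.map (fun v => γ * v) '' Φ U) ∧
    (∃ H : ℕ → (SimpleGraph.mulCayley s).Subgraph, IsExhaustion H) ∧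
    IsFUSF (SimpleGraph.mulCayley s) ((iidUniform Γ).map Φ)

/-- The free uniform spanning forest is a graph factor of i.i.d. labels on every unimodular
random rooted graph (infinite, connected, locally finite), and a `Γ`-factor of i.i.d. labels on
every Cayley graph of every infinite finitely generated group `Γ`. -/
theorem result :
    (∀ (V : Type*) [Countable V] [Infinite V] [MeasurableSpace V] [DiscreteMeasurableSpace V]
      (P : Measure (SimpleGraph V × V)) [IsProbabilityMeasure P],
      (∀ᵐ x ∂P, x.1.Connected) → (∀ᵐ x ∂P, ∀ v, (x.1.neighborSet v).Finite) →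
      IsUnimodular P → IsGraphFactorOfIID P) ∧
    (∀ (Γ : Type*) [Group Γ] [Infinite Γ] (s : Set Γ), s.Finite → Subgroup.closure s = ⊤ →
      IsGroupFactorOfIID s) := by
  refine ⟨?_, ?_⟩
  · intro V _ _ _ _ P _ hconn hlf hP
    obtain ⟨Φ, h1, h2, h3⟩ := exists_factor P hP hconn hlf
    refine ⟨Φ, h1, h2, ?_⟩
    filter_upwards [h3, hconn] with x hx hc
    exact ⟨exists_exhaustion _ hc, hx⟩
  · intro Γ _ _ s hs hgen
    obtain ⟨Φ, h1, h2, h3⟩ := cayley_factor hs hgen
    have : Countable Γ := countable_of_closure hs hgen
    exact ⟨Φ, h1, h2, exists_exhaustion _ (cayley_connected hgen), h3⟩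

end Vale.Agent.Results.P143.FusfFactorOfIid
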